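import Mathlib

open MeasureTheory
open scoped ContDiff

namespace Vale.Agent.P109

/-- the two-dimensional torus `ℝ² / ℤ²`, with its Haar probability measure `volume` -/
abbrev T2 : Type := UnitAddCircle × UnitAddCircle

/-- the covering map `ℝ² → ℝ² / ℤ²` -/
def pr (z : ℝ × ℝ) : T2 := ((z.1 : UnitAddCircle), (z.2 : UnitAddCircle))

/-- `S` is a `C^∞` diffeomorphism of the torus: a bijection that lifts to a bijection of `ℝ²`
which is `C^∞` with `C^∞` inverse -/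
def IsSmoothDiffeo (S : T2 ≃ T2) : Prop :=
  ∃ F : (ℝ × ℝ) ≃ (ℝ × ℝ), ContDiff ℝ ∞ F ∧ ContDiff ℝ ∞ F.symm ∧ ∀ z, pr (F z) = S (pr z)

/-- measure-theoretic isomorphism of `(X, μ, T)` and `(M, ν, S)`: a bijection `f` between
invariant conull measurable sets, measurable with measurable inverse `g`, carrying `μ` to `ν`
and intertwining `T` and `S` -/
def Isomorphic {X M : Type*} [MeasurableSpace X] [MeasurableSpace M] (μ : Measure X) (T : X → X)
    (ν : Measure M) (S : M → M) : Prop :=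
  ∃ (X₀ : Set X) (M₀ : Set M) (f : X → M) (g : M → X),
    MeasurableSet X₀ ∧ MeasurableSet M₀ ∧ μ X₀ᶜ = 0 ∧ ν M₀ᶜ = 0 ∧ T ⁻¹' X₀ = X₀ ∧ S ⁻¹' M₀ = M₀ ∧
    Measurable f ∧ Measurable g ∧ Set.MapsTo f X₀ M₀ ∧ Set.MapsTo g M₀ X₀ ∧
    (∀ x ∈ X₀, g (f x) = x) ∧ (∀ p ∈ M₀, f (g p) = p) ∧ MeasurePreserving f μ ν ∧
    ∀ x ∈ X₀, f (T x) = S (f x)

/-- `(X, μ, T)` has a smooth model on the torus with Lebesgue measure -/
def HasSmoothTorusModel {X : Type*} [MeasurableSpace X] (μ : Measure X) (T : X → X) : Prop :=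
  ∃ S : T2 ≃ T2, IsSmoothDiffeo S ∧ MeasurePreserving S volume volume ∧ Isomorphic μ T volume S

end Vale.Agent.P109
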