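import Vale.Agent.P109.Defs

open MeasureTheory Filter Topology Set

namespace Vale.Agent.P109

theorem mp_zpow {M : Type*} [MeasurableSpace M] {ν : Measure M} {S : M ≃ M}
    (h : MeasurePreserving S ν ν) (h' : MeasurePreserving S.symm ν ν) (k : ℤ) :
    MeasurePreserving ⇑((S : Equiv.Perm M) ^ k) ν ν := by
  induction k using Int.induction_on with
  | zero => simpa using MeasurePreserving.id ν
  | succ k ih => rw [zpow_add_one]; exact ih.comp h
  | pred k ih => rw [zpow_sub_one]; exact ih.comp h'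

theorem iso_of_code {X M Y : Type*} [MeasurableSpace X] [StandardBorelSpace X]
    [MeasurableSpace M] [StandardBorelSpace M] [MeasurableSpace Y] [StandardBorelSpace Y]
    [Nonempty X] [Nonempty M] {μ : Measure X} {ν : Measure M} {T : X → X} {S : M ≃ M}
    (h : MeasurePreserving S ν ν) (h' : MeasurePreserving S.symm ν ν) {R : Y → Y}
    (hR : Function.Injective R) {Ψ : X → Y} (hΨ : Measurable Ψ) (hΨi : Function.Injective Ψ)
    (hΨT : ∀ x, Ψ (T x) = R (Ψ x)) {Φ : M → Y} (hΦ : Measurable Φ) {M₁ : Set M}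
    (hM₁ : ∀ᵐ p ∂ν, p ∈ M₁) (hΦi : InjOn Φ M₁) (hΦS : ∀ᵐ p ∂ν, Φ (S p) = R (Φ p))
    (hmap : μ.map Ψ = ν.map Φ) : Isomorphic μ T ν S := by
  have eΨ : MeasurableEmbedding Ψ := hΨ.measurableEmbedding hΨi
  have h1 : ∀ᵐ p ∂ν, Φ p ∈ range Ψ := by
    refine ae_of_ae_map hΦ.aemeasurable ?_
    rw [← hmap]
    exact (ae_map_iff hΨ.aemeasurable eΨ.measurableSet_range).2
      (Eventually.of_forall fun x => mem_range_self x)
  obtain ⟨M₂, hM₂, hM₂m, hM₂s⟩ := (hM₁.and (hΦS.and h1)).exists_measurable_mem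
  set M₀ : Set M := ⋂ k : ℤ, ⇑((S : Equiv.Perm M) ^ k) ⁻¹' M₂ with hM₀
  have m0 : MeasurableSet M₀ :=
    MeasurableSet.iInter fun k => (mp_zpow h h' k).measurable hM₂m
  have a0 : ∀ᵐ p ∂ν, p ∈ M₀ := by
    simp only [hM₀, mem_iInter]
    rw [ae_all_iff]
    intro k
    exact (mp_zpow h h' k).quasiMeasurePreserving.ae hM₂
  have sub : M₀ ⊆ M₂ := fun p hp => by simpa using mem_iInter.1 hp 0
  have inv : ∀ p, S p ∈ M₀ ↔ p ∈ M₀ := by
    intro p
    simp only [hM₀, mem_iInter, mem_preimage]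
    constructor
    · intro hp k
      have := hp (k - 1)
      rwa [← Equiv.Perm.mul_apply, ← zpow_add_one, sub_add_cancel] at this
    · intro hp k
      have := hp (k + 1)
      rwa [zpow_add_one, Equiv.Perm.mul_apply] at this
  have inj0 : InjOn Φ M₀ := hΦi.mono fun p hp => (hM₂s p (sub hp)).1
  have eΦ : MeasurableEmbedding (fun p : M₀ => Φ p) := by
    haveI := m0.standardBorel
    exact (hΦ.comp measurable_subtype_coe).measurableEmbedding
      fun a b hab => Subtype.ext (inj0 a.2 b.2 hab)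
  have mI : MeasurableSet (Φ '' M₀) := m0.image_of_measurable_injOn hΦ inj0
  let u : Y → M := Function.extend (fun p : M₀ => Φ p) (fun p => (p : M))
    (fun _ => Classical.arbitrary M)
  let v : Y → X := Function.extend Ψ id (fun _ => Classical.arbitrary X)
  have um : Measurable u := eΦ.measurable_extend measurable_subtype_coe measurable_const
  have vm : Measurable v := eΨ.measurable_extend measurable_id measurable_const
  have hu : ∀ p ∈ M₀, u (Φ p) = p := fun p hp => eΦ.injective.extend_apply _ _ ⟨p, hp⟩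
  have hv : ∀ x, v (Ψ x) = x := fun x => hΨi.extend_apply _ _ x
  have hg : ∀ p ∈ M₀, Ψ (v (Φ p)) = Φ p := fun p hp => by
    obtain ⟨x, hx⟩ := (hM₂s p (sub hp)).2.2
    rw [← hx, hv]
  refine ⟨Ψ ⁻¹' (Φ '' M₀), M₀, u ∘ Ψ, v ∘ Φ, hΨ mI, m0, ?_, a0, ?_, ?_, um.comp hΨ, vm.comp hΦ,
    ?_, ?_, ?_, ?_, ⟨um.comp hΨ, ?_⟩, ?_⟩
  · have : ∀ᵐ x ∂μ, Ψ x ∈ Φ '' M₀ := by
      refine ae_of_ae_map hΨ.aemeasurable ?_
      rw [hmap]
      exact (ae_map_iff hΦ.aemeasurable mI).2 (a0.mono fun p hp => mem_image_of_mem _ hp)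
    exact this
  · ext x
    simp only [mem_preimage, mem_image]
    constructor
    · rintro ⟨p, hp, hpx⟩
      have hp' : S.symm p ∈ M₀ := (inv _).1 (by simpa using hp)
      refine ⟨S.symm p, hp', hR ?_⟩
      rw [← (hM₂s _ (sub hp')).2.1, S.apply_symm_apply, hpx, hΨT]
    · rintro ⟨p, hp, hpx⟩
      exact ⟨S p, (inv p).2 hp, by rw [(hM₂s _ (sub hp)).2.1, hpx, hΨT]⟩
  · ext p; exact inv p
  · rintro x ⟨p, hp, hpx⟩
    simp only [Function.comp_apply]
    rw [← hpx, hu p hp]; exact hp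
  · intro p hp
    exact ⟨p, hp, (hg p hp).symm⟩
  · rintro x ⟨p, hp, hpx⟩
    simp only [Function.comp_apply]
    rw [← hpx, hu p hp, hpx, hv]
  · intro p hp
    simp only [Function.comp_apply]
    rw [hg p hp, hu p hp]
  · rw [← Measure.map_map um hΨ, hmap, Measure.map_map um hΦ]
    rw [Measure.map_congr (f := u ∘ Φ) (g := id) (a0.mono fun p hp => hu p hp), Measure.map_id]
  · rintro x ⟨p, hp, hpx⟩
    simp only [Function.comp_apply]
    rw [hΨT, ← hpx, ← (hM₂s _ (sub hp)).2.1, hu p hp, hu _ ((inv p).2 hp)]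

theorem zmod_unif {N : ℕ} [NeZero N] (ρ : Measure (ZMod N)) [IsProbabilityMeasure ρ]
    (h : ρ.map (· + 1) = ρ) (a : ZMod N) : (N : ENNReal) * ρ {a} = 1 := by
  have h1 : ∀ b : ZMod N, ρ {b + 1} = ρ {b} := fun b => by
    conv_lhs => rw [← h]
    rw [Measure.map_apply (measurable_of_countable _) (MeasurableSet.singleton _)]
    congr 1
    ext x; simp
  have h2 : ∀ k : ℕ, ρ {a + k} = ρ {a} := fun k => by
    induction k with
    | zero => simp
    | succ k ih => rw [Nat.cast_succ, ← add_assoc, h1, ih]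
  have h3 : ∀ b : ZMod N, ρ {b} = ρ {a} := fun b => by
    have := h2 (b - a).val
    rwa [ZMod.natCast_zmod_val, add_sub_cancel] at this
  have h4 := sum_measure_singleton (μ := ρ) (s := Finset.univ)
  simp only [h3, Finset.sum_const, Finset.card_univ, ZMod.card, nsmul_eq_mul, Finset.coe_univ,
    measure_univ] at h4
  exact h4

theorem zmod_uniq {N : ℕ} [NeZero N] (ρ₁ ρ₂ : Measure (ZMod N)) [IsProbabilityMeasure ρ₁]
    [IsProbabilityMeasure ρ₂] (h₁ : ρ₁.map (· + 1) = ρ₁) (h₂ : ρ₂.map (· + 1) = ρ₂) : ρ₁ = ρ₂ := by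
  refine Measure.ext_of_singleton fun a => ?_
  have hN : (N : ENNReal) ≠ 0 := by exact_mod_cast NeZero.ne N
  exact (ENNReal.mul_right_inj hN (by simp)).1
    ((zmod_unif ρ₁ h₁ a).trans (zmod_unif ρ₂ h₂ a).symm)

theorem code_map_eq {A B : Type*} [MeasurableSpace A] [MeasurableSpace B] {μ : Measure A}
    {ν : Measure B} [IsProbabilityMeasure μ] [IsProbabilityMeasure ν] {r : ℕ → ℕ}
    {a : A → ∀ n, ZMod (r n)} {b : B → ∀ n, ZMod (r n)} (ha : Measurable a) (hb : Measurable b)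
    (ha' : ∀ n k, n ≤ k → ∀ᵐ x ∂μ, a x n = (a x k).cast)
    (hb' : ∀ n k, n ≤ k → ∀ᵐ x ∂ν, b x n = (b x k).cast)
    (hm : ∀ k, μ.map (fun x => a x k) = ν.map (fun x => b x k)) : μ.map a = ν.map b := by
  haveI := Measure.isProbabilityMeasure_map (μ := μ) ha.aemeasurable
  haveI := Measure.isProbabilityMeasure_map (μ := ν) hb.aemeasurable
  have key : ∀ I : Finset ℕ, (μ.map a).map I.restrict = (ν.map b).map I.restrict := by
    intro I
    let J : ZMod (r (I.sup id)) → ∀ i : I, ZMod (r i) := fun z _ => z.cast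
    have hJ : Measurable J := Measurable.of_discrete
    have hle : ∀ i : I, (i : ℕ) ≤ I.sup id := fun i => Finset.le_sup (f := id) i.2
    have e1 : (I.restrict ∘ a) =ᵐ[μ] J ∘ fun x => a x (I.sup id) := by
      filter_upwards [ae_all_iff.2 fun i : I => ha' i _ (hle i)] with x hx
      funext i; exact hx i
    have e2 : (I.restrict ∘ b) =ᵐ[ν] J ∘ fun x => b x (I.sup id) := by
      filter_upwards [ae_all_iff.2 fun i : I => hb' i _ (hle i)] with x hx
      funext i; exact hx i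
    rw [Measure.map_map (Finset.measurable_restrict I) ha,
      Measure.map_map (Finset.measurable_restrict I) hb, Measure.map_congr e1, Measure.map_congr e2,
      ← Measure.map_map hJ (measurable_pi_iff.1 ha _),
      ← Measure.map_map hJ (measurable_pi_iff.1 hb _)]
    exact congrArg _ (hm _)
  exact IsProjectiveLimit.unique (P := fun I => (ν.map b).map I.restrict) key (fun _ => rfl)

end Vale.Agent.P109
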