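import Vale.Agent.P109.Seq
import Vale.Agent.P109.Iso

open MeasureTheory Filter Topology Set
open scoped symmDiff

namespace Vale.Agent.P109

theorem equiv_limit {N : ℕ} [NeZero N] {T : ℕ → C(T2, T2)} {S : C(T2, T2)}
    (hT : Tendsto T atTop (𝓝 S)) (hm : ∀ k, MeasurePreserving (T k) volume volume)
    (hS : MeasurePreserving S volume volume) {e : ℕ → T2 → ZMod N} (he : ∀ k, Measurable (e k))
    {Φ : T2 → ZMod N} (hΦ : Measurable Φ) (hlim : ∀ᵐ p, ∀ᶠ k in atTop, e k p = Φ p)
    (hstep : ∀ᶠ k in atTop, ∀ p, e k (T k p) = e k p + 1) : ∀ᵐ p, Φ (S p) = Φ p + 1 := by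
  haveI := prob_T2
  let A : ℕ → Set T2 := fun k => {p | e k p ≠ Φ p}
  have hA : ∀ k, MeasurableSet (A k) := fun k => (measurableSet_eq_fun (he k) hΦ).compl
  have h1 : Tendsto (fun k => volume (A k)) atTop (𝓝 0) := by
    have := tendsto_measure_of_ae_tendsto_indicator_of_isFiniteMeasure (μ := volume) atTop
      MeasurableSet.empty hA (hlim.mono fun p hp => hp.mono fun k hk => by simp [A, hk])
    simpa using this
  have h2 : Tendsto (fun k => ∑ a : ZMod N,
      volume ((T k ⁻¹' (Φ ⁻¹' {a})) ∆ (S ⁻¹' (Φ ⁻¹' {a})))) atTop (𝓝 0) := by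
    have := tendsto_finsetSum (Finset.univ : Finset (ZMod N)) fun a _ =>
      tendsto_measure_symmDiff_preimage_nhds_zero (s := Φ ⁻¹' {a}) hT (Eventually.of_forall hm) hS
        (hΦ (MeasurableSet.singleton a)).nullMeasurableSet (measure_ne_top _ _)
    simpa using this
  have h3 := (h2.add h1).add h1
  simp only [add_zero] at h3
  rw [ae_iff]
  refine le_antisymm (ge_of_tendsto h3 ?_) zero_le
  filter_upwards [hstep] with k hk
  have h4 : {p | ¬ Φ (S p) = Φ p + 1} ⊆
      (⋃ a : ZMod N, (T k ⁻¹' (Φ ⁻¹' {a})) ∆ (S ⁻¹' (Φ ⁻¹' {a}))) ∪ T k ⁻¹' A k ∪ A k := by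
    intro p hp
    by_contra hn
    simp only [mem_union, mem_iUnion, not_or, not_exists, A, mem_preimage, mem_setOf_eq,
      not_not] at hn
    have h5 := hn.1.1 (Φ (S p))
    simp only [mem_symmDiff, mem_preimage, mem_singleton_iff, not_true, and_false, true_and,
      false_or, not_not] at h5
    exact hp (by rw [← h5, ← hn.1.2, hk, hn.2])
  refine (measure_mono h4).trans ((measure_union_le _ _).trans (add_le_add_left
    ((measure_union_le _ _).trans (add_le_add (measure_iUnion_fintype_le _ _) ?_)) _))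
  rw [(hm k).measure_preimage (hA k).nullMeasurableSet]

theorem map_shift {A : Type*} [MeasurableSpace A] {μ : Measure A} {N : ℕ} {T : A → A}
    (hT : MeasurePreserving T μ μ) {c : A → ZMod N} (hc : Measurable c)
    (h : ∀ᵐ x ∂μ, c (T x) = c x + 1) : (μ.map c).map (· + 1) = μ.map c := by
  rw [Measure.map_map Measurable.of_discrete hc]
  rw [Measure.map_congr (f := (· + 1) ∘ c) (g := c ∘ T) (h.mono fun x hx => hx.symm),
    ← Measure.map_map hc hT.measurable, hT.map_eq]

theorem torus_code {r : ℕ → ℕ} (hr : ∀ n, 0 < r n) (hd : ∀ n, r n ∣ r (n + 1)) {H K : ℕ → TD}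
    {G : ℕ → Set T2} (hH : ∀ n, H (n + 1) = (H n).comp (K n))
    (hS : ∀ n, Step n (r n) (r (n + 1)) (H n) (K n) (G n)) :
    ∃ (S : T2 ≃ T2) (Φ : T2 → ∀ n, ZMod (r n)) (M₁ : Set T2), IsSmoothDiffeo S ∧
      MeasurePreserving S volume volume ∧ MeasurePreserving S.symm volume volume ∧ Measurable Φ ∧
      (∀ᵐ p, p ∈ M₁) ∧ InjOn Φ M₁ ∧ (∀ n, ∀ᵐ p, Φ (S p) n = Φ p n + 1) ∧
      ∀ n k, n ≤ k → ∀ᵐ p, Φ p n = (Φ p k).cast := by
  obtain ⟨S, S', s1, s2, s3, s4, s5⟩ := limit_map hH hS
  let c : ℕ → T2 → ℤ := fun n p => lab (r n) ((H n).g.symm p).1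
  have cm : ∀ n, Measurable (c n) := fun n =>
    (measurable_lab _).comp (measurable_fst.comp (H n).g.symm.continuous.measurable)
  let E : ℕ → Set T2 := fun n => (H (n + 1)).g.symm ⁻¹' G n
  have hK : ∀ n p, (K n).g ((H (n + 1)).g.symm p) = (H n).g.symm p := fun n p => by
    rw [hH]; simp [TD.comp]
  have hE : ∀ᵐ p, ∀ᶠ n in atTop, p ∈ E n := by
    have h1 : ∀ n, volume (E n)ᶜ ≤ ENNReal.ofReal (3 * (1 / 2) ^ (n + 1)) := fun n => by
      rw [← preimage_compl, (H (n + 1)).mp'.measure_preimage (hS n).meas.compl.nullMeasurableSet]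
      exact (hS n).vol
    have h2 : Summable fun n : ℕ => (3 * (1 / 2) ^ (n + 1) : ℝ) :=
      ((summable_nat_add_iff 1).2 summable_geometric_two).mul_left 3
    have h3 : ∑' n, volume (E n)ᶜ ≠ ⊤ :=
      ne_top_of_le_ne_top h2.tsum_ofReal_ne_top (ENNReal.tsum_le_tsum h1)
    simpa using ae_eventually_notMem h3
  have hcc : ∀ p N, (∀ k ≥ N, p ∈ E k) → ∀ j ≥ N, ∀ k ≥ j, c k p ≡ c j p [ZMOD r j] := by
    intro p N hp j hj k hk
    induction k, hk using Nat.le_induction with
    | base => rfl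
    | succ k hk ih =>
      have h1 := (hS k).lab1 _ (hp k (le_trans hj hk))
      rw [hK] at h1
      exact (h1.symm.of_dvd (Int.natCast_dvd_natCast.2 (dvd_of_le hd hk))).trans ih
  have hex : ∀ n, ∃ φ : T2 → ZMod (r n), Measurable φ ∧
      ∀ᵐ p, ∀ᶠ k in atTop, ((c k p : ℤ) : ZMod (r n)) = φ p := by
    intro n
    obtain ⟨φ, h1, h2⟩ := measurable_limit_of_tendsto_metrizable_ae (μ := volume) (L := atTop)
      (f := fun k p => ((c k p : ℤ) : ZMod (r n)))
      (fun k => (Measurable.of_discrete.comp (cm k)).aemeasurable) (hE.mono fun p hp => by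
        obtain ⟨N, hN⟩ := eventually_atTop.1 hp
        refine ⟨((c (max N n) p : ℤ) : ZMod (r n)), tendsto_const_nhds.congr' ?_⟩
        filter_upwards [eventually_ge_atTop (max N n)] with k hk
        exact (ZMod.intCast_eq_intCast_iff _ _ _).2 ((hcc p N hN _ (le_max_left _ _) k hk).symm.of_dvd
          (Int.natCast_dvd_natCast.2 (dvd_of_le hd (le_max_right _ _)))))
    exact ⟨φ, h1, h2.mono fun p hp => by simpa [nhds_discrete, tendsto_pure] using hp⟩
  choose φ φm φl using hex
  refine ⟨S, fun p n => φ n p, {p | (∀ᶠ n in atTop, p ∈ E n) ∧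
    ∀ n, ∀ᶠ k in atTop, ((c k p : ℤ) : ZMod (r n)) = φ n p}, s1, s2, s3,
    measurable_pi_lambda _ φm, hE.and (ae_all_iff.2 φl), ?_, fun n => ?_, fun n k hnk => ?_⟩
  · rintro p ⟨p1, p2⟩ p' ⟨p1', p2'⟩ hpp
    obtain ⟨N, hN⟩ := eventually_atTop.1 (p1.and p1')
    have hl : ∀ j ≥ N, c j p = c j p' := by
      intro j hj
      obtain ⟨k, k1, k2, k3⟩ := ((eventually_ge_atTop j).and ((p2 j).and (p2' j))).exists
      have h1 : φ j p = φ j p' := congrFun hpp j
      rw [← k2, ← k3, ZMod.intCast_eq_intCast_iff] at h1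
      exact lab_eq (hr j) (((hcc p N (fun k hk => (hN k hk).1) j hj k k1).symm.trans h1).trans
        (hcc p' N (fun k hk => (hN k hk).2) j hj k k1))
    have hdist : ∀ n ≥ N, dist p p' ≤ 2 * (1 / 2) ^ n := by
      intro n hn
      have one_le : ∀ j, (1 : ℝ) / r (j + 1) ≤ r j / r (j + 1) := fun j => by
        have : (1 : ℝ) ≤ r j := by exact_mod_cast hr j
        gcongr
      have nn : ∀ j, (0 : ℝ) ≤ r j / r (j + 1) := fun j => by positivity
      have a1 := (hS (n + 1)).snd _ (hN (n + 1) (by omega)).1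
      have a2 := (hS (n + 1)).snd _ (hN (n + 1) (by omega)).2
      rw [hK] at a1 a2
      have a3 := lab_close (hr (n + 2)) (hl (n + 2) (by omega))
      have a4 := (hS n).fst _ (hN n hn).1 _ (hN n hn).2 (hl (n + 1) (by omega))
      rw [hK] at a4
      set z := (H (n + 1)).g.symm p
      set z' := (H (n + 1)).g.symm p'
      have a5 : dist (z'.1, z.2) z' ≤ 3 * (r (n + 1) / r (n + 1 + 1)) := by
        rw [Prod.dist_eq, dist_self, max_eq_right dist_nonneg]
        have := dist_triangle4_right z.2 z'.2 ((H (n + 1 + 1)).g.symm p).1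
          ((H (n + 1 + 1)).g.symm p').1
        linarith [one_le (n + 1)]
      have a6 := (hS (n + 1)).uc _ _ a5
      have a7 := (hS n).uc _ _ (a4.trans (by linarith [one_le n, nn n]))
      have e1 : (H (n + 1)).g (z'.1, z.2) = (H n).g ((K n).g (z'.1, z.2)) := by rw [hH]; rfl
      rw [Homeomorph.apply_symm_apply, e1] at a6
      rw [Homeomorph.apply_symm_apply] at a7
      have a8 := dist_triangle_left p p' ((H n).g ((K n).g (z'.1, z.2)))
      have a9 : (1 / 2 : ℝ) ^ (n + 1) ≤ (1 / 2) ^ n :=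
        pow_le_pow_of_le_one (by norm_num) (by norm_num) (Nat.le_succ n)
      linarith
    have h0 : Tendsto (fun n : ℕ => 2 * (1 / 2 : ℝ) ^ n) atTop (𝓝 0) := by
      simpa using (tendsto_pow_atTop_nhds_zero_of_lt_one (r := (1 / 2 : ℝ)) (by norm_num)
        (by norm_num)).const_mul 2
    exact dist_le_zero.1 (ge_of_tendsto h0 (eventually_atTop.2 ⟨N, hdist⟩))
  · haveI : NeZero (r n) := ⟨(hr n).ne'⟩
    have s2' : MeasurePreserving S' volume volume := by
      rw [show (S' : T2 → T2) = S from funext s4]; exact s2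
    have := equiv_limit s5 (fun k => Tw_mp _ _) s2' (e := fun k p => ((c k p : ℤ) : ZMod (r n)))
      (fun k => Measurable.of_discrete.comp (cm k)) (φm n) (φl n) (by
        filter_upwards [eventually_ge_atTop n] with k hk p
        have h1 := (lab_step (hr k) ((H k).g.symm p).1).of_dvd
          (Int.natCast_dvd_natCast.2 (dvd_of_le hd hk))
        rw [← ZMod.intCast_eq_intCast_iff, Int.cast_add, Int.cast_one] at h1
        simpa [c, Tw, pr] using h1)
    simpa only [s4] using this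
  · filter_upwards [φl n, φl k] with p h1 h2
    obtain ⟨j, j1, j2⟩ := (h1.and h2).exists
    rw [← j1, ← j2, ZMod.cast_intCast (dvd_of_le hd hnk)]

theorem odometer_model {X : Type*} [MeasurableSpace X] [StandardBorelSpace X] (μ : Measure X)
    [IsProbabilityMeasure μ] (T : X → X) (hT : MeasurePreserving T μ μ) (q : ℕ → ℕ)
    (hq : ∀ n, 0 < q n) (hd : ∀ n, q n ∣ q (n + 1)) (hu : ∀ N, ∃ n, N < q n)
    (c : ∀ n, X → ZMod (q n)) (hc : ∀ n, Measurable (c n)) (hs : ∀ n x, c n (T x) = c n x + 1)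
    (hcomp : ∀ n x, ZMod.castHom (hd n) (ZMod (q n)) (c (n + 1) x) = c n x)
    (hsep : ∀ x y, (∀ n, c n x = c n y) → x = y) : HasSmoothTorusModel μ T := by
  haveI := prob_T2
  haveI : Nonempty X := nonempty_of_isProbabilityMeasure μ
  obtain ⟨s, H, K, G, hs1, hH, hS⟩ := exists_seq hq hd hu
  have hd' : ∀ n, q (s n) ∣ q (s (n + 1)) := fun n => dvd_of_le hd (hs1.monotone (Nat.le_succ n))
  obtain ⟨S, Φ, M₁, a1, a2, a3, a4, a5, a6, a7, a8⟩ :=
    torus_code (r := fun n => q (s n)) (fun n => hq _) hd' hH hS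
  have hcast : ∀ n k, n ≤ k → ∀ x, c n x = (c k x).cast := by
    intro n k hnk x
    induction k, hnk using Nat.le_induction with
    | base => rw [ZMod.cast_id]
    | succ k hk ih =>
      obtain ⟨m, hm⟩ := ZMod.intCast_surjective (c (k + 1) x)
      rw [ih, ← hcomp k x, ← hm, map_intCast, ZMod.cast_intCast (dvd_of_le hd hk),
        ZMod.cast_intCast (dvd_of_le hd (Nat.le_succ_of_le hk))]
  have hΨ : Measurable fun x n => c (s n) x := measurable_pi_lambda _ fun n => hc _
  haveI : ∀ n, NeZero (q (s n)) := fun n => ⟨(hq _).ne'⟩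
  haveI : ∀ n, StandardBorelSpace (ZMod (q (s n))) := fun n => inferInstance
  refine ⟨S, a1, a2, iso_of_code (R := fun y n => y n + 1) (Ψ := fun x n => c (s n) x) a2 a3
    (fun y y' h => funext fun n => add_right_cancel (congrFun h n)) hΨ
    (fun x y h => hsep x y fun n => ?_) (fun x => funext fun n => hs _ x) a4 a5 a6
    ((ae_all_iff.2 a7).mono fun p hp => funext hp) ?_⟩
  · rw [hcast n (s n) (hs1.id_le n) x, hcast n (s n) (hs1.id_le n) y]
    exact congrArg _ (congrFun h n)
  · refine code_map_eq hΨ a4 (fun n k hnk => Eventually.of_forall fun x =>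
      hcast _ _ (hs1.monotone hnk) x) a8 fun k => ?_
    haveI : NeZero (q (s k)) := ⟨(hq _).ne'⟩
    haveI := Measure.isProbabilityMeasure_map (μ := μ) (hc (s k)).aemeasurable
    haveI := Measure.isProbabilityMeasure_map (μ := (volume : Measure T2))
      (measurable_pi_iff.1 a4 k).aemeasurable
    exact zmod_uniq _ _ (map_shift hT (hc _) (Eventually.of_forall (hs _)))
      (map_shift a2 (measurable_pi_iff.1 a4 k) (a7 k))

end Vale.Agent.P109
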