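import Vale.Agent.P109.Stage

open MeasureTheory Filter Topology Set
open scoped ContDiff

namespace Vale.Agent.P109

/-- the conjugate of the translation by `b` -/
def Fw (H : TD) (b z : ℝ × ℝ) : ℝ × ℝ := H.f (H.f.symm z + b)

theorem Fw_smooth (H : TD) (b : ℝ × ℝ) : ContDiff ℝ ∞ (Fw H b) :=
  H.hf.comp (H.hf'.add contDiff_const)

theorem Fw_small (H : TD) (a s : ℝ) (n : ℕ) {ε : ℝ} (hε : 0 < ε) :
    ∀ᶠ t in 𝓝 (0 : ℝ), ∀ j ≤ n, ∀ z,
      ‖iteratedFDeriv ℝ j (fun z => Fw H (a, s * t) z - Fw H (a, 0) z) z‖ ≤ ε := by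
  have h1 : ContDiff ℝ ∞ fun w : ℝ × (ℝ × ℝ) => Fw H (a, s * w.1) w.2 - Fw H (a, 0) w.2 :=
    (H.hf.comp ((H.hf'.comp contDiff_snd).add
      (contDiff_const.prodMk (contDiff_const.mul contDiff_fst)))).sub
      ((Fw_smooth H _).comp contDiff_snd)
  have h2 := fun j => small_deriv h1 (fun z => by simp)
    (fun t z m => by simp only [Fw, H.conj_per]; abel) j hε
  have h3 := (eventually_all_finset (Finset.range (n + 1))).2 fun j _ => h2 j
  filter_upwards [h3] with t ht j hj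
  exact ht j (Finset.mem_range.2 (Nat.lt_succ_of_le hj))

/-- the conditions on one step of the construction -/
structure Step (n q Q : ℕ) (H K : TD) (G : Set T2) : Prop where
  meas : MeasurableSet G
  vol : volume Gᶜ ≤ ENNReal.ofReal (3 * (1 / 2) ^ (n + 1))
  eqv : ∀ z, K.f (z + ((1 / Q : ℝ), (0 : ℝ))) = K.f z + ((1 / q : ℝ), (1 / Q : ℝ))
  lab1 : ∀ p ∈ G, lab q (K.g p).1 ≡ lab Q p.1 [ZMOD q]
  snd : ∀ p ∈ G, dist (K.g p).2 p.1 ≤ q / Q
  fst : ∀ p ∈ G, ∀ p' ∈ G, lab Q p.1 = lab Q p'.1 → dist (K.g (p'.1, p.2)) (K.g p) ≤ 1 / Q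
  sm : ∀ s : ℝ, s = 1 ∨ s = -1 → ∀ j ≤ n, ∀ z, ‖iteratedFDeriv ℝ j
    (fun z => Fw H (s * (1 / q), s * (1 / Q)) z - Fw H (s * (1 / q), 0) z) z‖ ≤ (1 / 2) ^ n
  uc : ∀ a b, dist a b ≤ 3 * (q / Q) → dist (H.g a) (H.g b) ≤ (1 / 2) ^ n

theorem dvd_of_le {q : ℕ → ℕ} (hd : ∀ n, q n ∣ q (n + 1)) {n k : ℕ} (h : n ≤ k) : q n ∣ q k := by
  induction k, h using Nat.le_induction with
  | base => exact dvd_rfl
  | succ k _ ih => exact ih.trans (hd k)

theorem exists_step {q : ℕ → ℕ} (hq : ∀ n, 0 < q n) (hd : ∀ n, q n ∣ q (n + 1))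
    (hu : ∀ N, ∃ n, N < q n) (n i : ℕ) (H : TD) :
    ∃ i' : ℕ, ∃ K : TD, ∃ G : Set T2, i < i' ∧ Step n (q i) (q i') H K G := by
  have h1 : Tendsto q atTop atTop :=
    tendsto_atTop_atTop_of_monotone (fun a b h => Nat.le_of_dvd (hq b) (dvd_of_le hd h))
      fun N => (hu N).imp fun _ h => h.le
  have h2 : Tendsto (fun k => 1 / (q k : ℝ)) atTop (𝓝 0) :=
    tendsto_const_nhds.div_atTop (tendsto_natCast_atTop_atTop.comp h1)
  have h3 : Tendsto (fun k => 3 * ((q i : ℝ) / (q k : ℝ))) atTop (𝓝 0) := by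
    have := (tendsto_const_nhds (x := (q i : ℝ))).div_atTop (tendsto_natCast_atTop_atTop.comp h1)
    simpa using this.const_mul 3
  have hε : (0 : ℝ) < (1 / 2) ^ n := by positivity
  obtain ⟨δ, hδ, hH⟩ := Metric.uniformContinuous_iff.1
    (CompactSpace.uniformContinuous_of_continuous H.g.continuous) _ hε
  obtain ⟨k, hk1, hk2, hk3, hk4⟩ := ((eventually_gt_atTop i).and
    ((h2.eventually (Fw_small H (1 * (1 / q i)) 1 n hε)).and
      ((h2.eventually (Fw_small H (-1 * (1 / q i)) (-1) n hε)).and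
        (h3.eventually (gt_mem_nhds hδ))))).exists
  obtain ⟨K, G, g1, g2, g3, g4, g5, g6⟩ := stage (hq i) (hq k) (dvd_of_le hd hk1.le)
    (η := (1 / 2) ^ (n + 1)) (by positivity) (pow_lt_one₀ (by norm_num) (by norm_num) (by omega))
  refine ⟨k, K, G, hk1, g1, g2, g3, g4, g5, g6, ?_, fun a b hab => (hH (hab.trans_lt hk4)).le⟩
  rintro s (rfl | rfl)
  · exact hk2
  · exact hk3

theorem exists_seq {q : ℕ → ℕ} (hq : ∀ n, 0 < q n) (hd : ∀ n, q n ∣ q (n + 1))
    (hu : ∀ N, ∃ n, N < q n) : ∃ (s : ℕ → ℕ) (H K : ℕ → TD) (G : ℕ → Set T2), StrictMono s ∧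
      (∀ n, H (n + 1) = (H n).comp (K n)) ∧
      ∀ n, Step n (q (s n)) (q (s (n + 1))) (H n) (K n) (G n) := by
  choose ι κ γ h1 h2 using exists_step hq hd hu
  let u : ℕ → ℕ × TD := fun n => Nat.rec (0, TD.swap)
    (fun n d => (ι n d.1 d.2, d.2.comp (κ n d.1 d.2))) n
  exact ⟨fun n => (u n).1, fun n => (u n).2, fun n => κ n (u n).1 (u n).2,
    fun n => γ n (u n).1 (u n).2, strictMono_nat_of_lt_succ fun n => h1 n _ _, fun _ => rfl,
    fun n => h2 n _ _⟩

theorem Step.fw {n q Q : ℕ} {H K : TD} {G : Set T2} (h : Step n q Q H K G) {s : ℝ}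
    (hs : s = 1 ∨ s = -1) (z : ℝ × ℝ) :
    Fw (H.comp K) (s * (1 / Q), 0) z = Fw H (s * (1 / q), s * (1 / Q)) z := by
  have key : ∀ w, K.f (w + (s * (1 / Q), 0)) = K.f w + (s * (1 / q), s * (1 / Q)) := by
    intro w
    rcases hs with rfl | rfl
    · simpa using h.eqv w
    · have := h.eqv (w + ((-1 * (1 / Q) : ℝ), (0 : ℝ)))
      have e : w + ((-1 * (1 / Q) : ℝ), (0 : ℝ)) + ((1 / Q : ℝ), (0 : ℝ)) = w := by
        ext <;> simp
      rw [e] at this
      rw [this]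
      ext <;> simp
  simp only [Fw, TD.comp, Equiv.trans_apply, Equiv.symm_trans_apply, key, Equiv.apply_symm_apply]

theorem mp_limit {f : ℕ → C(T2, T2)} {g : C(T2, T2)} (h : Tendsto f atTop (𝓝 g))
    (hf : ∀ n, MeasurePreserving (f n) volume volume) : MeasurePreserving g volume volume := by
  haveI := prob_T2
  refine ⟨g.continuous.measurable, ext_of_forall_integral_eq_of_IsFiniteMeasure fun φ => ?_⟩
  rw [integral_map g.continuous.aemeasurable φ.continuous.aestronglyMeasurable]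
  have h1 : ∀ n, ∫ p, φ (f n p) = ∫ p, φ p := fun n => by
    rw [← integral_map (f n).continuous.aemeasurable φ.continuous.aestronglyMeasurable,
      (hf n).map_eq]
  have h2 : Tendsto (fun n => ∫ p, φ (f n p)) atTop (𝓝 (∫ p, φ (g p))) :=
    tendsto_integral_of_dominated_convergence (fun _ => ‖φ‖)
      (fun n => (φ.continuous.comp (f n).continuous).aestronglyMeasurable) (integrable_const _)
      (fun n => Eventually.of_forall fun p => φ.norm_coe_le_norm _)
      (Eventually.of_forall fun p => (φ.continuous.tendsto _).comp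
        (((continuous_eval_const p).tendsto g).comp h))
  simp only [h1] at h2
  exact tendsto_nhds_unique h2 tendsto_const_nhds

/-- the conjugated translation on the torus -/
noncomputable def Tw (H : TD) (b : ℝ × ℝ) : C(T2, T2) :=
  ⟨fun p => H.g (H.g.symm p + pr b), by fun_prop⟩

theorem Tw_pr (H : TD) (b z : ℝ × ℝ) : Tw H b (pr z) = pr (Fw H b z) := by
  simp [Tw, Fw, H.sc, pr_add, H.sc']

theorem Tw_mp (H : TD) (b : ℝ × ℝ) : MeasurePreserving (Tw H b) volume volume := by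
  haveI := prob_circle
  have h : MeasurePreserving (fun p : T2 => p + pr b) volume volume :=
    (measurePreserving_add_right volume (pr b).1).prod (measurePreserving_add_right volume (pr b).2)
  exact H.mp.comp (h.comp H.mp')

theorem limit_one {r : ℕ → ℕ} {H K : ℕ → TD} {G : ℕ → Set T2}
    (hH : ∀ n, H (n + 1) = (H n).comp (K n))
    (hS : ∀ n, Step n (r n) (r (n + 1)) (H n) (K n) (G n)) {s : ℝ} (hs : s = 1 ∨ s = -1) :
    ∃ (F : ℝ × ℝ → ℝ × ℝ) (S : C(T2, T2)), ContDiff ℝ ∞ F ∧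
      TendstoUniformly (fun n => Fw (H n) (s * (1 / r n), 0)) F atTop ∧
      Tendsto (fun n => Tw (H n) (s * (1 / r n), 0)) atTop (𝓝 S) ∧ ∀ z, pr (F z) = S (pr z) := by
  set A : ℕ → ℝ × ℝ → ℝ × ℝ := fun n => Fw (H n) (s * (1 / r n), 0) with hA
  set D : ℕ → ℝ × ℝ → ℝ × ℝ := fun n z => A (n + 1) z - A n z with hD
  have hb : ∀ n, ∀ j ≤ n, ∀ z, ‖iteratedFDeriv ℝ j (D n) z‖ ≤ (1 / 2) ^ n := by
    intro n j hj z
    have := (hS n).sm s hs j hj z
    simp only [← (hS n).fw hs, ← hH] at this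
    exact this
  have hb0 : ∀ n z, ‖D n z‖ ≤ (1 / 2) ^ n := fun n z => by
    simpa using hb n 0 (Nat.zero_le n) z
  have hsum : Summable fun n : ℕ => (1 / 2 : ℝ) ^ n := summable_geometric_two
  have hsm : ContDiff ℝ ∞ fun z => ∑' n, D n z :=
    contDiff_tsum_of_eventually (N := ⊤) (v := fun _ n => (1 / 2) ^ n)
      (fun n => (Fw_smooth _ _).sub (Fw_smooth _ _)) (fun _ _ => hsum) fun k _ => by
        rw [Nat.cofinite_eq_atTop]
        filter_upwards [eventually_ge_atTop k] with n hn using hb n k hn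
  have hun : TendstoUniformly A (fun z => A 0 z + ∑' n, D n z) atTop := by
    have h1 := tendstoUniformly_tsum_nat hsum hb0
    rw [Metric.tendstoUniformly_iff] at h1 ⊢
    intro ε hε
    filter_upwards [h1 ε hε] with n hn z
    have h2 : A n z = A 0 z + ∑ i ∈ Finset.range n, D i z := by
      simp only [hD]; rw [Finset.sum_range_sub (fun i => A i z)]; abel
    rw [h2, dist_add_left]; exact hn z
  have hc : CauchySeq fun n => Tw (H n) (s * (1 / r n), 0) := by
    refine cauchySeq_of_le_geometric (1 / 2) 1 (by norm_num) fun n => ?_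
    rw [ContinuousMap.dist_le (by positivity)]
    intro p
    obtain ⟨z, rfl⟩ := pr_surj p
    rw [Tw_pr, Tw_pr, dist_comm, one_mul]
    exact (dist_pr_le _ _).trans (hb0 n z)
  obtain ⟨S, hSl⟩ := cauchySeq_tendsto_of_complete hc
  refine ⟨_, S, (Fw_smooth _ _).add hsm, hun, hSl, fun z => ?_⟩
  have h1 := ((continuous_eval_const (pr z)).tendsto S).comp hSl
  have h2 := (continuous_pr.tendsto _).comp (hun.tendsto_at z)
  refine tendsto_nhds_unique h2 (h1.congr fun n => ?_)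
  exact Tw_pr _ _ _

theorem limit_map {r : ℕ → ℕ} {H K : ℕ → TD} {G : ℕ → Set T2}
    (hH : ∀ n, H (n + 1) = (H n).comp (K n))
    (hS : ∀ n, Step n (r n) (r (n + 1)) (H n) (K n) (G n)) :
    ∃ (S : T2 ≃ T2) (S' : C(T2, T2)), IsSmoothDiffeo S ∧ MeasurePreserving S volume volume ∧
      MeasurePreserving S.symm volume volume ∧ (∀ p, S' p = S p) ∧
      Tendsto (fun n => Tw (H n) (1 * (1 / r n), 0)) atTop (𝓝 S') := by
  obtain ⟨F, S, a1, a2, a3, a4⟩ := limit_one hH hS (s := 1) (Or.inl rfl)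
  obtain ⟨B, S', b1, b2, b3, b4⟩ := limit_one hH hS (s := -1) (Or.inr rfl)
  have hinv : ∀ (H : TD) (a : ℝ) z, Fw H (a, 0) (Fw H (-a, 0) z) = z := fun H a z => by
    simp [Fw, add_assoc, Prod.mk_zero_zero]
  have h1 : ∀ z, F (B z) = z := fun z => by
    refine tendsto_nhds_unique (a2.tendsto_comp a1.continuous.continuousAt (b2.tendsto_at z))
      (tendsto_const_nhds.congr fun n => ?_)
    simpa using (hinv (H n) (1 / r n) z).symm
  have h2 : ∀ z, B (F z) = z := fun z => by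
    refine tendsto_nhds_unique (b2.tendsto_comp b1.continuous.continuousAt (a2.tendsto_at z))
      (tendsto_const_nhds.congr fun n => ?_)
    simpa using (hinv (H n) (-(1 / r n)) z).symm
  refine ⟨⟨S, S', fun p => ?_, fun p => ?_⟩, S, ⟨⟨F, B, h2, h1⟩, a1, b1, a4⟩,
    mp_limit a3 fun n => Tw_mp _ _, mp_limit b3 fun n => Tw_mp _ _, fun _ => rfl, a3⟩
  · obtain ⟨z, rfl⟩ := pr_surj p
    rw [← a4, ← b4, h2]
  · obtain ⟨z, rfl⟩ := pr_surj p
    rw [← b4, ← a4, h1]

end Vale.Agent.P109
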