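import Vale.Agent.P109.Defs

open MeasureTheory Filter Topology
open scoped ContDiff

namespace Vale.Agent.P109

/-- integer vectors -/
def iv (m : ℤ × ℤ) : ℝ × ℝ := ((m.1 : ℝ), (m.2 : ℝ))

theorem small_deriv {Ψ : ℝ × (ℝ × ℝ) → ℝ × ℝ} (hΨ : ContDiff ℝ ∞ Ψ) (h0 : ∀ z, Ψ (0, z) = 0)
    (hper : ∀ t z m, Ψ (t, z + iv m) = Ψ (t, z)) (j : ℕ) {ε : ℝ} (hε : 0 < ε) :
    ∀ᶠ t in 𝓝 (0 : ℝ), ∀ z, ‖iteratedFDeriv ℝ j (fun z => Ψ (t, z)) z‖ ≤ ε := by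
  let L : (ℝ × ℝ) →L[ℝ] ℝ × (ℝ × ℝ) := ContinuousLinearMap.inr ℝ ℝ (ℝ × ℝ)
  have hA : ∀ t z, iteratedFDeriv ℝ j (fun z => Ψ (t, z)) z =
      (iteratedFDeriv ℝ j Ψ (t, z)).compContinuousLinearMap fun _ => L := by
    intro t z
    have h1 : (fun z => Ψ (t, z)) = (fun w => Ψ (w + (t, 0))) ∘ L := by
      funext z; simp [L]
    have h2 : ContDiff ℝ ∞ (fun w => Ψ (w + (t, 0))) := hΨ.comp (contDiff_id.add contDiff_const)
    rw [h1, L.iteratedFDeriv_comp_right h2 z (by exact_mod_cast le_top),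
      iteratedFDeriv_comp_add_right]
    simp [L]
  have hc : Continuous fun w : ℝ × (ℝ × ℝ) => ‖iteratedFDeriv ℝ j (fun z => Ψ (w.1, z)) w.2‖ := by
    simp only [hA]
    refine Continuous.norm ?_
    exact (ContinuousMultilinearMap.compContinuousLinearMapL (fun _ : Fin j => L)).continuous.comp
      (hΨ.continuous_iteratedFDeriv (by exact_mod_cast le_top))
  have hK : IsCompact (Set.Icc (0 : ℝ × ℝ) 1) := isCompact_Icc
  have h3 : ∀ᶠ t in 𝓝 (0 : ℝ), ∀ z ∈ Set.Icc (0 : ℝ × ℝ) 1,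
      ‖iteratedFDeriv ℝ j (fun z => Ψ (t, z)) z‖ < ε := by
    refine hK.eventually_forall_of_forall_eventually
      (P := fun t z => ‖iteratedFDeriv ℝ j (fun z => Ψ (t, z)) z‖ < ε) fun z _ => ?_
    refine hc.continuousAt.eventually_lt continuousAt_const ?_
    simp only [h0]
    simpa using hε
  filter_upwards [h3] with t ht z
  have h4 : z = (Int.fract z.1, Int.fract z.2) + iv (⌊z.1⌋, ⌊z.2⌋) := by
    ext <;> simp [iv]
  have h5 := iteratedFDeriv_comp_add_right (𝕜 := ℝ) (f := fun z => Ψ (t, z)) j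
    (iv (⌊z.1⌋, ⌊z.2⌋)) (Int.fract z.1, Int.fract z.2)
  simp only [hper] at h5
  rw [h4, ← h5]
  refine (ht _ ⟨⟨Int.fract_nonneg _, Int.fract_nonneg _⟩,
    ⟨(Int.fract_lt_one _).le, (Int.fract_lt_one _).le⟩⟩).le

end Vale.Agent.P109
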