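import Vale.Agent.P109.TD

open MeasureTheory Filter Topology Set
open scoped ContDiff

namespace Vale.Agent.P109

/-- the representative in `[0, 1)` -/
noncomputable def rep (u : UnitAddCircle) : ℝ := (AddCircle.equivIco 1 0 u : ℝ)

theorem rep_coe (x : ℝ) : rep (x : UnitAddCircle) = Int.fract x := by
  have := AddCircle.coe_equivIco_mk_apply (p := (1 : ℝ)) x
  simpa [rep] using this

theorem coe_fract (x : ℝ) : ((Int.fract x : ℝ) : UnitAddCircle) = x := by
  rw [Int.fract, AddCircle.coe_sub, coe_int, sub_zero]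

theorem coe_rep (u : UnitAddCircle) : ((rep u : ℝ) : UnitAddCircle) = u := by
  obtain ⟨x, rfl⟩ := QuotientAddGroup.mk_surjective u
  rw [rep_coe, coe_fract]

theorem rep_mem (u : UnitAddCircle) : 0 ≤ rep u ∧ rep u < 1 := by
  obtain ⟨x, rfl⟩ := QuotientAddGroup.mk_surjective u
  rw [rep_coe]; exact ⟨Int.fract_nonneg _, Int.fract_lt_one _⟩

theorem measurable_rep : Measurable rep :=
  measurable_subtype_coe.comp (AddCircle.measurableEquivIco 1 0).measurable

/-- index of the arc of length `1 / Q` containing `u` -/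
noncomputable def lab (Q : ℕ) (u : UnitAddCircle) : ℤ := ⌊(Q : ℝ) * rep u⌋

theorem measurable_lab (Q : ℕ) : Measurable (lab Q) :=
  Int.measurable_floor.comp (measurable_rep.const_mul _)

theorem lab_coe (Q : ℕ) (x : ℝ) : lab Q (x : UnitAddCircle) ≡ ⌊(Q : ℝ) * x⌋ [ZMOD Q] := by
  have h : (Q : ℝ) * Int.fract x = Q * x - ((Q * ⌊x⌋ : ℤ) : ℝ) := by
    rw [Int.fract]; push_cast; ring
  rw [lab, rep_coe, h, Int.floor_sub_intCast]
  exact (Int.modEq_iff_dvd.2 ⟨⌊x⌋, by ring⟩)

theorem lab_step {Q : ℕ} (hQ : 0 < Q) (u : UnitAddCircle) :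
    lab Q (u + ((1 / Q : ℝ) : UnitAddCircle)) ≡ lab Q u + 1 [ZMOD Q] := by
  obtain ⟨x, rfl⟩ := QuotientAddGroup.mk_surjective u
  have hQ' : (Q : ℝ) ≠ 0 := by positivity
  rw [← AddCircle.coe_add]
  refine (lab_coe Q _).trans ?_
  rw [mul_add, mul_one_div_cancel hQ', Int.floor_add_one]
  exact ((lab_coe Q x).symm).add_right 1

theorem lab_eq {Q : ℕ} (hQ : 0 < Q) {u v : UnitAddCircle} (h : lab Q u ≡ lab Q v [ZMOD Q]) :
    lab Q u = lab Q v := by
  have hQ' : (0 : ℝ) < Q := by exact_mod_cast hQ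
  have key : ∀ w, 0 ≤ lab Q w ∧ lab Q w < Q := fun w =>
    ⟨Int.floor_nonneg.2 (mul_nonneg hQ'.le (rep_mem w).1), Int.floor_lt.2 (by
      push_cast; exact mul_lt_of_lt_one_right hQ' (rep_mem w).2)⟩
  have := h.eq
  rwa [Int.emod_eq_of_lt (key u).1 (key u).2, Int.emod_eq_of_lt (key v).1 (key v).2] at this

theorem rep_close {Q : ℕ} (hQ : 0 < Q) {u v : UnitAddCircle} (h : lab Q u = lab Q v) :
    |rep u - rep v| ≤ 1 / Q := by
  have hQ' : (0 : ℝ) < Q := by exact_mod_cast hQ
  have h1 := Int.abs_sub_lt_one_of_floor_eq_floor h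
  rw [← mul_sub, abs_mul, abs_of_pos hQ'] at h1
  rw [le_div_iff₀ hQ']; linarith

theorem lab_close {Q : ℕ} (hQ : 0 < Q) {u v : UnitAddCircle} (h : lab Q u = lab Q v) :
    dist u v ≤ 1 / Q := by
  rw [← coe_rep u, ← coe_rep v]
  exact (dist_coe_le _ _).trans (rep_close hQ h)

/-- points away from the left ends of the arcs of length `1 / Q` -/
def good (η : ℝ) (Q : ℕ) : Set UnitAddCircle := {u | η ≤ rep ((Q : ℤ) • u)}

theorem good_iff (η : ℝ) (Q : ℕ) (u : UnitAddCircle) :
    u ∈ good η Q ↔ η ≤ Int.fract ((Q : ℝ) * rep u) := by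
  conv_lhs => rw [← coe_rep u]
  rw [good, mem_setOf_eq, ← AddCircle.coe_zsmul, rep_coe]
  simp

theorem measurableSet_good (η : ℝ) (Q : ℕ) : MeasurableSet (good η Q) :=
  measurableSet_le measurable_const (measurable_rep.comp (continuous_zsmul _).measurable)

theorem volume_good {η : ℝ} {Q : ℕ} (hQ : 0 < Q) :
    volume (good η Q)ᶜ ≤ ENNReal.ofReal η := by
  have h1 : (good η Q)ᶜ ⊆ (fun u : UnitAddCircle => (Q : ℤ) • u) ⁻¹'
      Metric.closedBall ((η / 2 : ℝ) : UnitAddCircle) (η / 2) := by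
    intro u hu
    simp only [good, mem_compl_iff, mem_setOf_eq, not_le] at hu
    rw [mem_preimage, Metric.mem_closedBall, ← coe_rep ((Q : ℤ) • u)]
    refine (dist_coe_le _ _).trans (abs_le.2 ⟨?_, ?_⟩) <;> linarith [(rep_mem ((Q : ℤ) • u)).1]
  refine (measure_mono h1).trans ?_
  rw [(Measure.measurePreserving_zsmul volume (by exact_mod_cast hQ.ne')).measure_preimage
    measurableSet_closedBall.nullMeasurableSet, AddCircle.volume_closedBall]
  exact ENNReal.ofReal_le_ofReal ((min_le_right _ _).trans (by linarith))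

theorem stage {q Q : ℕ} (hq : 0 < q) (hQ : 0 < Q) (hd : q ∣ Q) {η : ℝ} (h0 : 0 < η) (h1 : η < 1) :
    ∃ K : TD, ∃ G : Set T2, MeasurableSet G ∧ volume Gᶜ ≤ ENNReal.ofReal (3 * η) ∧
      (∀ z, K.f (z + ((1 / Q : ℝ), (0 : ℝ))) = K.f z + ((1 / q : ℝ), (1 / Q : ℝ))) ∧
      (∀ p ∈ G, lab q (K.g p).1 ≡ lab Q p.1 [ZMOD q]) ∧
      (∀ p ∈ G, dist (K.g p).2 p.1 ≤ q / Q) ∧
      (∀ p ∈ G, ∀ p' ∈ G, lab Q p.1 = lab Q p'.1 → dist (K.g (p'.1, p.2)) (K.g p) ≤ 1 / Q) := by
  obtain ⟨st, hst, hs1, hs2⟩ := exists_stair h0 h1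
  have hq' : (0 : ℝ) < q := by exact_mod_cast hq
  have hQ' : (0 : ℝ) < Q := by exact_mod_cast hQ
  have hs3 : ∀ (t : ℝ) (m : ℤ), st (t + m) = st t + m := fun t m => by
    have := step_int (φ := st) (n := 1) (fun x => by rw [hs1]; simp) t m
    simpa using this
  obtain ⟨m, hm⟩ := hd
  have hm' : (Q : ℝ) = q * m := by exact_mod_cast hm
  obtain ⟨K₁, hK₁⟩ := exists_shear (φ := fun y => (q * st y - st (q * y)) / Q) (n := 0)
    (((contDiff_const.mul hst).sub (hst.comp (contDiff_const.mul contDiff_id))).div_const _)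
    (fun y => by
      have := hs3 (q * y) q
      simp only [Int.cast_natCast] at this
      rw [mul_add, mul_one, this, hs1]; push_cast; ring)
  obtain ⟨K₂, hK₂⟩ := exists_shear (φ := fun u => st (Q * u) / q) (n := m)
    ((hst.comp (contDiff_const.mul contDiff_id)).div_const _)
    (fun y => by
      have := hs3 (Q * y) Q
      simp only [Int.cast_natCast] at this
      rw [mul_add, mul_one, this, Int.cast_natCast, add_div]
      congr 1
      rw [hm']; field_simp)
  let K : TD := TD.swap.comp (K₂.comp (TD.swap.comp (K₁.comp TD.swap)))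
  have hK : ∀ x y : ℝ, K.f (x, y) = (y + st (Q * (x + (q * st y - st (q * y)) / Q)) / q,
      x + (q * st y - st (q * y)) / Q) := by
    intro x y
    simp [K, TD.comp, TD.swap, hK₁, hK₂]
  have hG : ∀ u v : UnitAddCircle, u ∈ good η Q → v ∈ good η q → v ∈ good η 1 →
      K.g (u, v) = pr (rep v + ((lab Q u - lab q v : ℤ) : ℝ) / q, rep u - (lab q v : ℝ) / Q) := by
    intro u v hu hv hv'
    rw [good_iff] at hu hv hv'
    simp only [Nat.cast_one, one_mul] at hv'
    have e0 : (u, v) = pr (rep u, rep v) := by simp [pr, coe_rep]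
    have e1 : ⌊rep v⌋ = 0 := Int.floor_eq_zero_iff.2 (rep_mem v)
    rw [e0, ← K.sc, hK, hs2 _ hv', hs2 _ hv, e1]
    have e2 : (Q : ℝ) * (rep u + (q * ((0 : ℤ) : ℝ) - (⌊(q : ℝ) * rep v⌋ : ℝ)) / Q) =
        Q * rep u + ((-lab q v : ℤ) : ℝ) := by
      rw [lab]; push_cast; field_simp; ring
    rw [e2, hs3, hs2 _ hu]
    congr 1
    ext
    · simp only [lab]; push_cast; ring
    · simp only [lab]; push_cast; ring
  haveI := prob_circle
  refine ⟨K, good η Q ×ˢ (good η q ∩ good η 1),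
    (measurableSet_good _ _).prod ((measurableSet_good _ _).inter (measurableSet_good _ _)),
    ?_, ?_, ?_, ?_, ?_⟩
  · have h2 : (good η Q ×ˢ (good η q ∩ good η 1))ᶜ ⊆ (Prod.fst ⁻¹' (good η Q)ᶜ ∪
        Prod.snd ⁻¹' (good η q)ᶜ ∪ Prod.snd ⁻¹' (good η 1)ᶜ : Set T2) := by
      intro p hp
      simp only [mem_compl_iff, mem_prod, mem_inter_iff, mem_union, mem_preimage] at hp ⊢
      tauto
    have f1 : MeasurePreserving (Prod.fst : T2 → UnitAddCircle) volume volume :=
      measurePreserving_fst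
    have f2 : MeasurePreserving (Prod.snd : T2 → UnitAddCircle) volume volume :=
      measurePreserving_snd
    refine (measure_mono h2).trans ((measure_union_le _ _).trans
      ((add_le_add_left (measure_union_le _ _) _).trans ?_))
    rw [f1.measure_preimage (measurableSet_good _ _).compl.nullMeasurableSet,
      f2.measure_preimage (measurableSet_good _ _).compl.nullMeasurableSet,
      f2.measure_preimage (measurableSet_good _ _).compl.nullMeasurableSet,
      show 3 * η = η + η + η by ring, ENNReal.ofReal_add (by linarith) h0.le,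
      ENNReal.ofReal_add h0.le h0.le]
    exact add_le_add (add_le_add (volume_good hQ) (volume_good hq)) (volume_good one_pos)
  · rintro ⟨x, y⟩
    rw [Prod.mk_add_mk, add_zero, hK, hK, Prod.mk_add_mk]
    have e : (Q : ℝ) * (x + 1 / Q + (q * st y - st (q * y)) / Q) =
        Q * (x + (q * st y - st (q * y)) / Q) + 1 := by field_simp; ring
    rw [e, hs1]
    ext
    · simp only; ring
    · simp only; ring
  · rintro ⟨u, v⟩ ⟨hu, hv, hv'⟩
    rw [hG u v hu hv hv']
    refine (lab_coe q _).trans ?_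
    have e : (q : ℝ) * (rep v + ((lab Q u - lab q v : ℤ) : ℝ) / q) =
        q * rep v + ((lab Q u - lab q v : ℤ) : ℝ) := by field_simp
    rw [e, Int.floor_add_intCast]
    change lab q v + (lab Q u - lab q v) ≡ lab Q u [ZMOD q]
    rw [add_sub_cancel]
  · rintro ⟨u, v⟩ ⟨hu, hv, hv'⟩
    rw [hG u v hu hv hv']
    change dist ((rep u - (lab q v : ℝ) / Q : ℝ) : UnitAddCircle) u ≤ _
    conv_lhs => rw [← coe_rep u, rep_coe, Int.fract_eq_self.2 (rep_mem u)]
    refine (dist_coe_le _ _).trans ?_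
    have a1 : (0 : ℝ) ≤ lab q v := by
      exact_mod_cast Int.floor_nonneg.2 (mul_nonneg hq'.le (rep_mem v).1)
    have a2 : (lab q v : ℝ) ≤ q :=
      (Int.floor_le _).trans (mul_le_of_le_one_right hq'.le (rep_mem v).2.le)
    rw [sub_sub_cancel_left, abs_neg, abs_of_nonneg (by positivity)]
    gcongr
  · rintro ⟨u, v⟩ ⟨hu, hv, hv'⟩ ⟨u', v'⟩ ⟨hu', -⟩ hl
    simp only at hl hu hu' hv hv' ⊢
    rw [hG u v hu hv hv', hG u' v hu' hv hv', hl]
    refine (dist_pr_le _ _).trans ?_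
    rw [Prod.mk_sub_mk, sub_self, sub_sub_sub_cancel_right, Prod.norm_mk, norm_zero,
      Real.norm_eq_abs, max_eq_right (abs_nonneg _)]
    exact rep_close hQ hl.symm

end Vale.Agent.P109
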