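import Vale.Agent.P109.Small

open MeasureTheory Filter Topology Set
open scoped ContDiff

namespace Vale.Agent.P109

theorem prob_circle : IsProbabilityMeasure (volume : Measure UnitAddCircle) :=
  ⟨UnitAddCircle.measure_univ⟩

theorem prob_T2 : IsProbabilityMeasure (volume : Measure T2) := by
  haveI := prob_circle
  exact Measure.prod.instIsProbabilityMeasure _ _

theorem pr_surj : Function.Surjective pr := by
  rintro ⟨a, b⟩
  obtain ⟨x, rfl⟩ := QuotientAddGroup.mk_surjective a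
  obtain ⟨y, rfl⟩ := QuotientAddGroup.mk_surjective b
  exact ⟨(x, y), rfl⟩

theorem pr_add (z w : ℝ × ℝ) : pr (z + w) = pr z + pr w := rfl

theorem dist_coe_le (x y : ℝ) : dist (x : UnitAddCircle) (y : UnitAddCircle) ≤ |x - y| := by
  rw [dist_eq_norm, ← AddCircle.coe_sub]
  exact QuotientAddGroup.norm_mk_le_norm

theorem dist_pr_le (z w : ℝ × ℝ) : dist (pr z) (pr w) ≤ ‖z - w‖ := by
  rw [Prod.dist_eq, Prod.norm_def]
  exact max_le_max (dist_coe_le _ _) (dist_coe_le _ _)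

theorem continuous_pr : Continuous pr :=
  ((AddCircle.continuous_mk' 1).comp continuous_fst).prodMk
    ((AddCircle.continuous_mk' 1).comp continuous_snd)

theorem coe_int (k : ℤ) : ((k : ℝ) : UnitAddCircle) = 0 :=
  (AddCircle.coe_eq_zero_iff 1).2 ⟨k, by simp⟩

/-- an area preserving diffeomorphism of the torus together with a lift -/
structure TD where
  f : (ℝ × ℝ) ≃ (ℝ × ℝ)
  g : T2 ≃ₜ T2
  hf : ContDiff ℝ ∞ f
  hf' : ContDiff ℝ ∞ f.symm
  per : ∀ m : ℤ × ℤ, ∃ m' : ℤ × ℤ, ∀ z, f.symm (z + iv m) = f.symm z + iv m'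
  sc : ∀ z, pr (f z) = g (pr z)
  mp : MeasurePreserving g volume volume

theorem TD.sc' (H : TD) (z : ℝ × ℝ) : pr (H.f.symm z) = H.g.symm (pr z) := by
  rw [Homeomorph.eq_symm_apply, ← H.sc, Equiv.apply_symm_apply]

theorem TD.mp' (H : TD) : MeasurePreserving H.g.symm volume volume :=
  MeasurePreserving.symm H.g.toMeasurableEquiv H.mp

theorem TD.conj_per (H : TD) (b z : ℝ × ℝ) (m : ℤ × ℤ) :
    H.f (H.f.symm (z + iv m) + b) = H.f (H.f.symm z + b) + iv m := by
  obtain ⟨m', hm⟩ := H.per m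
  rw [hm, ← Equiv.eq_symm_apply, hm, Equiv.symm_apply_apply]
  abel

/-- composition: first `K`, then `H` -/
def TD.comp (H K : TD) : TD where
  f := K.f.trans H.f
  g := K.g.trans H.g
  hf := H.hf.comp K.hf
  hf' := K.hf'.comp H.hf'
  per := fun m => by
    obtain ⟨m', hm⟩ := H.per m
    obtain ⟨m'', hm'⟩ := K.per m'
    exact ⟨m'', fun z => by simp [hm, hm']⟩
  sc := fun z => by simp [H.sc, K.sc]
  mp := H.mp.comp K.mp

/-- exchange of the coordinates -/
def TD.swap : TD where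
  f := Equiv.prodComm ℝ ℝ
  g := Homeomorph.prodComm _ _
  hf := contDiff_snd.prodMk contDiff_fst
  hf' := contDiff_snd.prodMk contDiff_fst
  per := fun m => ⟨m.swap, fun _ => rfl⟩
  sc := fun _ => rfl
  mp := by
    haveI := prob_circle
    exact Measure.measurePreserving_swap

theorem step_int {φ : ℝ → ℝ} {n : ℤ} (h : ∀ x, φ (x + 1) = φ x + n) (x : ℝ) (m : ℤ) :
    φ (x + m) = φ x + n * m := by
  have h1 : Function.Periodic (fun x => φ x - n * x) 1 := fun x => by simp only [h]; ring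
  have := h1.int_mul m x
  simp only [mul_one] at this
  linarith

theorem exists_circle {φ : ℝ → ℝ} (hφ : Continuous φ) {n : ℤ} (h : ∀ x, φ (x + 1) = φ x + n) :
    ∃ ψ : UnitAddCircle → UnitAddCircle, Continuous ψ ∧ ∀ x : ℝ, ψ x = (φ x : ℝ) := by
  have h1 : Function.Periodic (fun x => ((φ x : ℝ) : UnitAddCircle)) 1 := fun x => by
    simp only [h, AddCircle.coe_add, coe_int, add_zero]
  refine ⟨h1.lift, ?_, fun x => rfl⟩
  rw [(QuotientAddGroup.isQuotientMap_mk _).continuous_iff]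
  exact (AddCircle.continuous_mk' 1).comp hφ

theorem exists_shear {φ : ℝ → ℝ} (hφ : ContDiff ℝ ∞ φ) {n : ℤ} (h : ∀ x, φ (x + 1) = φ x + n) :
    ∃ K : TD, ∀ z, K.f z = (z.1, z.2 + φ z.1) := by
  obtain ⟨ψ, hψ, hψ'⟩ := exists_circle hφ.continuous h
  haveI := prob_circle
  refine ⟨⟨⟨fun z => (z.1, z.2 + φ z.1), fun z => (z.1, z.2 - φ z.1), fun z => by simp,
    fun z => by simp⟩, ⟨⟨fun z => (z.1, z.2 + ψ z.1), fun z => (z.1, z.2 - ψ z.1), fun z => by simp,
    fun z => by simp⟩, by fun_prop, by fun_prop⟩,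
    contDiff_fst.prodMk (contDiff_snd.add (hφ.comp contDiff_fst)),
    contDiff_fst.prodMk (contDiff_snd.sub (hφ.comp contDiff_fst)),
    fun m => ⟨(m.1, m.2 - n * m.1), fun z => ?_⟩, fun z => ?_, ?_⟩, fun z => rfl⟩
  · ext
    · rfl
    · simp [iv, step_int h]; ring
  · simp [pr, hψ']
  · exact (MeasurePreserving.id volume).skew_product (g := fun a c => c + ψ a)
      (by unfold Function.uncurry; fun_prop)
      (Eventually.of_forall fun a => map_add_right_eq_self volume (ψ a))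

theorem exists_stair {η : ℝ} (h0 : 0 < η) (h1 : η < 1) : ∃ st : ℝ → ℝ, ContDiff ℝ ∞ st ∧
    (∀ t, st (t + 1) = st t + 1) ∧ ∀ t, η ≤ Int.fract t → st t = ⌊t⌋ := by
  have h3 : ∀ t, η ≤ Int.fract t →
      (⌊t⌋ : ℝ) - 1 + Real.smoothTransition (Int.fract t / η) = ⌊t⌋ := fun t ht => by
    rw [Real.smoothTransition.one_of_one_le ((one_le_div h0).2 ht)]; ring
  refine ⟨fun t => ⌊t⌋ - 1 + Real.smoothTransition (Int.fract t / η), ?_, fun t => ?_, h3⟩
  · refine contDiff_iff_contDiffAt.2 fun t => ?_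
    have h2 : ContDiff ℝ ∞ fun s : ℝ => (⌊t⌋ : ℝ) - 1 + Real.smoothTransition ((s - ⌊t⌋) / η) :=
      contDiff_const.add (Real.smoothTransition.contDiff.comp
        ((contDiff_id.sub contDiff_const).div_const _))
    refine h2.contDiffAt.congr_of_eventuallyEq ?_
    have h4 : Ioo ((⌊t⌋ : ℝ) - 1 + η) (⌊t⌋ + 1) ∈ 𝓝 t :=
      Ioo_mem_nhds (by linarith [Int.floor_le t]) (Int.lt_floor_add_one t)
    filter_upwards [h4] with s hs
    rcases le_or_gt (⌊t⌋ : ℝ) s with h | h
    · have : ⌊s⌋ = ⌊t⌋ := Int.floor_eq_iff.2 ⟨h, hs.2⟩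
      rw [Int.fract, this]
    · have h5 : ⌊s⌋ = ⌊t⌋ - 1 := Int.floor_eq_iff.2
        ⟨by push_cast; linarith [hs.1], by push_cast; linarith⟩
      have h6 : η ≤ Int.fract s := by rw [Int.fract, h5]; push_cast; linarith [hs.1]
      rw [h3 s h6, h5, Real.smoothTransition.zero_of_nonpos
        (div_nonpos_of_nonpos_of_nonneg (by linarith) h0.le)]
      push_cast; ring
  · simp only [Int.floor_add_one, Int.fract_add_one]; push_cast; ring

end Vale.Agent.P109
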